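import Vale.Agent.P125.Smooth

namespace Vale.Agent.Results.P125.Full

open Vale.Agent.P125

theorem result (X : Type*) [NormedAddCommGroup X] [NormedSpace ℝ X] [CompleteSpace X]
    (p : ℝ) (hp : 1 < p) (h : HasMarkovType X p) :
    (∃ N : Seminorm ℝ X, IsEquivalentNorm N ∧ IsUniformlySmooth N) ∧
      ∃ N : Seminorm ℝ X, IsEquivalentNorm N ∧ IsUniformlyConvex N :=
  main hp h

end Vale.Agent.Results.P125.Full
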